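import Vale.Agent.P084.Main

universe u v

/-- Tingley's problem: every surjective isometry between the unit spheres of nonzero real Banach
spaces is the restriction of a unique real-linear isometry of `X` onto `Y`. -/
theorem Vale.Agent.Results.P084.A_full.result
    (X : Type u) (Y : Type v)
    [NormedAddCommGroup X] [NormedSpace ℝ X] [CompleteSpace X] [Nontrivial X]
    [NormedAddCommGroup Y] [NormedSpace ℝ Y] [CompleteSpace Y] [Nontrivial Y]
    (f : Metric.sphere (0 : X) 1 → Metric.sphere (0 : Y) 1)
    (hf : ∀ x y : Metric.sphere (0 : X) 1, ‖(f x : Y) - (f y : Y)‖ = ‖(x : X) - (y : X)‖)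
    (hsurj : Function.Surjective f) :
    ∃! T : X ≃ₗᵢ[ℝ] Y, ∀ x : Metric.sphere (0 : X) 1, T (x : X) = (f x : Y) :=
  Vale.Agent.P084.tingley f (Isometry.of_dist_eq fun x y => by
    rw [Subtype.dist_eq, Subtype.dist_eq, dist_eq_norm, dist_eq_norm, hf]) hsurj
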